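import Vale.Agent.Lib.P358.Formula

/-! The classical capacity of all generalized amplitude-damping channels, with an explicit formula. -/

namespace Vale.Agent.Results.P358.A_formula

open Vale.Agent.Lib.P358

/-- For all parameters, `C(A) = χ(A) = max_q gadcF γ ν q`, and `χ(A^{⊗n}) = n χ(A)`. -/
theorem result (γ ν : ℝ) (hγ : γ ∈ Set.Icc (0 : ℝ) 1) (hν : ν ∈ Set.Icc (0 : ℝ) 1) :
    IsLUB (holevoSet (gadc γ ν)) (holevoCapacity (gadc γ ν)) ∧
    (∀ n : ℕ, IsLUB (holevoSet (tensorPow (gadc γ ν) n)) (n * holevoCapacity (gadc γ ν))) ∧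
    (∀ n : ℕ, holevoCapacity (tensorPow (gadc γ ν) n) = n * holevoCapacity (gadc γ ν)) ∧
    classicalCapacity (gadc γ ν) = holevoCapacity (gadc γ ν) ∧
    IsGreatest (gadcF γ ν '' Set.Icc 0 1) (classicalCapacity (gadc γ ν)) := by
  obtain ⟨h1, h2, h3, h4⟩ := gadc_additivity hγ.1 hγ.2 hν.1 hν.2
  refine ⟨h1, h2, h3, h4, ?_⟩
  rw [h4]
  exact gadc_formula hγ.1 hγ.2 hν.1 hν.2

end Vale.Agent.Results.P358.A_formula
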