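import Vale.Agent.Lib.P358.Product

/-! Additivity of the Holevo capacity for all generalized amplitude-damping channels. -/

namespace Vale.Agent.Results.P358.A_main

open Vale.Agent.Lib.P358

/-- For all parameters, `χ(A^{⊗n}) = n χ(A)` (with genuine suprema), so `C(A) = χ(A)`. -/
theorem result (γ ν : ℝ) (hγ : γ ∈ Set.Icc (0 : ℝ) 1) (hν : ν ∈ Set.Icc (0 : ℝ) 1) :
    IsLUB (holevoSet (gadc γ ν)) (holevoCapacity (gadc γ ν)) ∧
    (∀ n : ℕ, IsLUB (holevoSet (tensorPow (gadc γ ν) n)) (n * holevoCapacity (gadc γ ν))) ∧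
    (∀ n : ℕ, holevoCapacity (tensorPow (gadc γ ν) n) = n * holevoCapacity (gadc γ ν)) ∧
    classicalCapacity (gadc γ ν) = holevoCapacity (gadc γ ν) :=
  gadc_additivity hγ.1 hγ.2 hν.1 hν.2

end Vale.Agent.Results.P358.A_main
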